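import Crest.Agent.R166.LG.SX

/-!
# R166/LG/GX: exchangeability and the gluing bijection (`StGX`)
-/

set_option autoImplicit false
set_option linter.unusedSectionVars false

open MeasureTheory ProbabilityTheory Filter Topology
open scoped ENNReal

noncomputable section

namespace Crest.Agent.R166

section abstr
variable {X Y : Type} [Fintype X] [Fintype Y]

theorem lg_sum_bij {p : X → Prop} {r : Y → Prop} {f : X → Y} (h1 : ∀ x, p x → r (f x))
    (h2 : ∀ x x', p x → p x' → f x = f x' → x = x') (h3 : ∀ y, r y → ∃ x, p x ∧ f x = y) (Φ : Y → ℝ) :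
    ∑ x, ind (p x) * Φ (f x) = ∑ y, ind (r y) * Φ y := by
  classical
  simp only [ind, ite_mul, one_mul, zero_mul]
  rw [← Finset.sum_filter, ← Finset.sum_filter]
  refine Finset.sum_bij (fun x _ => f x) (fun x hx => ?_) (fun x hx x' hx' => ?_) (fun y hy => ?_) fun _ _ => rfl
  · simpa using h1 x (by simpa using hx)
  · exact h2 x x' (by simpa using hx) (by simpa using hx')
  · obtain ⟨x, hx, e⟩ := h3 y (by simpa using hy)
    exact ⟨x, by simpa using hx, e⟩

theorem lg_frac_not (p : X → Prop) [Nonempty X] : frac (fun x => ¬ p x) = 1 - (∑ x, ind (p x)) / Fintype.card X := by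
  rw [eq_sub_iff_add_eq, lg_frac_eq, ← avg, ← p_avg_add, ← p_avg_const (ι := X) 1]
  congr 1; funext x
  by_cases h : p x <;> simp [ind, h]

theorem lg_abstr {p : X → Prop} {r : Y → Prop} {f : X → Y} (h1 : ∀ x, p x → r (f x))
    (h2 : ∀ x x', p x → p x' → f x = f x' → x = x') (h3 : ∀ y, r y → ∃ x, p x ∧ f x = y) (Φ : Y → ℝ) :
    ((∀ y, |Φ y| ≤ 1) → |avg Φ - avg fun x => ind (p x) * Φ (f x)| ≤
      frac (fun x => ¬ p x) + 2 * frac fun y => ¬ r y) ∧
    ((∀ y, 0 ≤ Φ y) → frac (fun x => ¬ p x) ≤ 1 / 2 →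
      (avg fun y => ind (r y) * Φ y) ≤ 2 * avg fun x => ind (p x) * Φ (f x)) := by
  have e1 := lg_sum_bij h1 h2 h3 Φ
  have e2 := lg_sum_bij h1 h2 h3 fun _ => 1
  simp only [mul_one] at e2
  have a1 := p_frac_nonneg fun x => ¬ p x
  have a2 := p_frac_nonneg fun y => ¬ r y
  have split : (∀ y, |Φ y| ≤ 1) → |avg Φ - avg fun y => ind (r y) * Φ y| ≤ frac fun y => ¬ r y := fun hb => by
    have : avg Φ = (avg fun y => ind (r y) * Φ y) + avg fun y => ind (¬ r y) * Φ y := by
      rw [← p_avg_add]; congr 1; funext y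
      by_cases h : r y <;> simp [ind, h]
    rw [this, add_sub_cancel_left, abs_le, lg_frac_eq, ← neg_one_mul, ← p_avg_mul]
    constructor <;> refine p_avg_mono fun y => ?_ <;> nlinarith [abs_le.1 (hb y), lg_ind_nonneg (¬ r y)]
  cases isEmpty_or_nonempty X with
  | inl _ =>
    have e3 : (avg fun y => ind (r y) * Φ y) = 0 := by rw [avg, ← e1]; simp
    have e4 : (avg fun x => ind (p x) * Φ (f x)) = 0 := by simp [avg]
    rw [e4, e3]
    refine ⟨fun hb => ?_, fun _ _ => by simp⟩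
    have := split hb
    rw [e3] at this
    linarith
  | inr hX =>
    have : Nonempty Y := hX.map f
    have hx : (0 : ℝ) < Fintype.card X := by exact_mod_cast Fintype.card_pos
    have hy : (0 : ℝ) < Fintype.card Y := by exact_mod_cast Fintype.card_pos
    have f1 := lg_frac_not p
    have f2 := lg_frac_not r
    rw [e2] at f1
    set m := ∑ y, ind (r y) with hm
    set S := ∑ y, ind (r y) * Φ y with hS
    have e3 : (avg fun y => ind (r y) * Φ y) = S / Fintype.card Y := rfl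
    have e4 : (avg fun x => ind (p x) * Φ (f x)) = S / Fintype.card X := by rw [avg, e1]
    refine ⟨fun hb => ?_, fun h0 hh => ?_⟩
    · have hSm : |S| ≤ m := (Finset.abs_sum_le_sum_abs _ _).trans (Finset.sum_le_sum fun y _ => by
        rw [abs_mul, abs_of_nonneg (lg_ind_nonneg _)]
        exact mul_le_of_le_one_right (lg_ind_nonneg _) (hb y))
      have k1 : |S / Fintype.card Y - S / Fintype.card X| ≤ |m / Fintype.card Y - m / Fintype.card X| := by
        simp only [div_eq_mul_inv, ← mul_sub, abs_mul]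
        exact mul_le_mul_of_nonneg_right (hSm.trans (le_abs_self _)) (abs_nonneg _)
      have k2 : |m / Fintype.card Y - m / Fintype.card X| ≤ frac (fun x => ¬ p x) + frac fun y => ¬ r y := by
        rw [abs_le]; constructor <;> linarith
      have k3 := split hb
      rw [e3] at k3
      rw [e4]
      linarith [abs_sub_le (avg Φ) (S / Fintype.card Y) (S / Fintype.card X)]
    · have hS0 : 0 ≤ S := Finset.sum_nonneg fun y _ => mul_nonneg (lg_ind_nonneg _) (h0 y)
      have k1 : m / Fintype.card Y ≤ 1 := by linarith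
      have k2 : 1 / 2 ≤ m / Fintype.card X := by linarith
      rw [div_le_one hy] at k1
      rw [le_div_iff₀ hx] at k2
      rw [e3, e4, ← mul_div_assoc, div_le_div_iff₀ hy hx]
      nlinarith

end abstr

section glue
variable {V : Type} [Fintype V] [DecidableEq V] {q : ℕ}

/-- no edge inside the two new vertices -/
def lg_N (ρ : Pairing (V ⊕ Fin 2) q) : Prop := ∀ (o : Fin 2) (j : Fin (q + 1)), ∃ h, ρ (Sum.inr o, j) = inlH h

theorem lg_inl_or (x : HE (V ⊕ Fin 2) q) : (∃ h, x = inlH h) ∨ ∃ o j, x = (Sum.inr o, j) := by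
  rcases x with ⟨v | o, j⟩
  · exact Or.inl ⟨(v, j), rfl⟩
  · exact Or.inr ⟨o, j, rfl⟩

theorem lg_glue_N {σ : Pairing V q} {α : Fin (q + 1) → HE V q} (h : Disj σ α) : lg_N (glue σ α) := by
  obtain ⟨h1, h2, -⟩ := lg_glue_spec σ α h
  intro o j
  fin_cases o
  · exact ⟨_, h1 j⟩
  · exact ⟨_, h2 j⟩

theorem lg_glue_inj {x x' : Pairing V q × (Fin (q + 1) → HE V q)} (h : Disj x.1 x.2) (h' : Disj x'.1 x'.2)
    (e : glue x.1 x.2 = glue x'.1 x'.2) : x = x' := by
  have e2 : x.2 = x'.2 := funext fun j => lg_inlH_inj (by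
    rw [← (lg_glue_spec _ _ h).2.1, e, (lg_glue_spec _ _ h').2.1])
  refine Prod.ext (p_ext fun y => lg_inlH_inj ((lg_tau x.2).injective ?_)) e2
  have a := lg_glue_tau x.1 x.2 (inlH y)
  have b := lg_glue_tau x'.1 x'.2 (inlH y)
  rw [← e, ← e2] at b
  exact a.symm.trans b

theorem lg_sum0_surj (ρ : Pairing (V ⊕ Fin 2) q) (h : ∀ j, ρ (Sum.inr 1, j) = (Sum.inr 0, j)) :
    ∃ σ : Pairing V q, sum0 σ = ρ := by
  have h' : ∀ (o : Fin 2) j, ρ (Sum.inr o, j) = (Sum.inr o.rev, j) := by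
    intro o j
    fin_cases o
    · exact (p_eq_iff ρ).2 (h j).symm
    · exact h j
  have h1 : ∀ x : HE V q, ∃ y, ρ (inlH x) = inlH y := fun x => by
    rcases lg_inl_or (ρ (inlH x)) with hx | ⟨o, j, hx⟩
    · exact hx
    · rw [p_eq_iff, h'] at hx
      exact absurd hx (lg_inlH_ne _ _ _)
  choose f hf using h1
  have hi : Function.Involutive f := fun x => lg_inlH_inj (by rw [← hf, ← hf, p_inv])
  refine ⟨⟨hi.toPerm, fun x => ⟨hi x, fun e => p_ne ρ (inlH x) ((hf x).trans (congrArg inlH e))⟩⟩,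
    p_ext fun x => ?_⟩
  rcases x with ⟨v | o, j⟩
  · exact (hf (v, j)).symm
  · exact (h' o j).symm

theorem lg_glue_surj (ρ : Pairing (V ⊕ Fin 2) q) (h : lg_N ρ) :
    ∃ x : Pairing V q × (Fin (q + 1) → HE V q), Disj x.1 x.2 ∧ glue x.1 x.2 = ρ := by
  choose β hβ using h
  have hα : Function.Injective (β 1) := fun i j e => by
    have : ρ (Sum.inr 1, i) = ρ (Sum.inr 1, j) := by rw [hβ, hβ, e]
    exact (congrArg Prod.snd (p_inj ρ this) :)
  obtain ⟨t1, t2, t3, -⟩ := lg_tau_spec hα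
  have hc : ∀ x, lg_tau (β 1) (conjP (lg_tau (β 1))⁻¹ ρ x) = ρ (lg_tau (β 1) x) := fun x => by
    change lg_tau (β 1) ((lg_tau (β 1))⁻¹ (ρ ((lg_tau (β 1))⁻¹⁻¹ x))) = _
    rw [inv_inv, Equiv.Perm.inv_def, Equiv.apply_symm_apply]
  obtain ⟨σ, hσ⟩ := lg_sum0_surj (conjP (lg_tau (β 1))⁻¹ ρ) fun j => (lg_tau (β 1)).injective (by
    rw [hc, t3, t2, hβ])
  refine ⟨(σ, β 1), fun i j hij => ⟨hα.ne hij, fun e => ?_⟩, p_ext fun x => ?_⟩
  · have h1 := hc (inlH (β 1 j))
    rw [← hσ, t1, hβ] at h1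
    have h2 : sum0 σ (inlH (β 1 j)) = inlH (β 1 i) := (congrArg inlH e).symm
    rw [h2, t1] at h1
    exact lg_inlH_ne _ _ _ h1.symm
  · obtain ⟨y, rfl⟩ := (lg_tau (β 1)).surjective x
    rw [lg_glue_tau, hσ, hc]

theorem lg_frac_disj : frac (fun x : Pairing V q × (Fin (q + 1) → HE V q) => ¬ Disj x.1 x.2) ≤
    (q + 1) ^ 2 * 2 / Fintype.card V := by
  rw [p_frac_prod]
  refine p_avg_le (by positivity) fun σ => ?_
  refine (p_frac_mono (p' := fun α => ∃ x ∈ (Finset.univ : Finset (Fin (q + 1) × Fin (q + 1))),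
    x.1 ≠ x.2 ∧ (α x.1 = α x.2 ∨ α x.1 = σ (α x.2))) fun α h => ?_).trans
    ((lg_frac_exists_le _ (c := 2 / Fintype.card V) fun x _ => ?_).trans_eq (by simp; ring))
  · simp only [Disj, not_forall, not_and_or, not_not] at h
    obtain ⟨i, j, hij, h⟩ := h
    exact ⟨(i, j), Finset.mem_univ _, hij, h⟩
  · refine lg_frac_update _ x.1 (by positivity) fun α => ?_
    refine (p_frac_le_card (T := {α x.2, σ (α x.2)}) (t := 2) (fun y hy => ?_)
      (by exact_mod_cast Finset.card_le_two)).trans (p_div_HE zero_le_two)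
    obtain ⟨hne, hy⟩ := hy
    rw [Function.update_self, Function.update_of_ne hne.symm] at hy
    simpa using hy

theorem lg_frac_N (hV : 1 ≤ Fintype.card V) : frac (fun ρ : Pairing (V ⊕ Fin 2) q => ¬ lg_N ρ) ≤
    2 * (q + 1) * (2 * (q + 1) + 1) / Fintype.card V := by
  let T : Finset (HE (V ⊕ Fin 2) q) := Finset.univ.image fun x : Fin 2 × Fin (q + 1) => (Sum.inr x.1, x.2)
  have hT : T.card ≤ 2 * (q + 1) := Finset.card_image_le.trans (by simp)
  have hV' : (0 : ℝ) < Fintype.card V := by exact_mod_cast hV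
  refine (p_frac_mono (p' := fun ρ => ∃ x ∈ (Finset.univ : Finset (Fin 2 × Fin (q + 1))),
    (Sum.inr x.1, x.2) ∉ (∅ : Finset (HE (V ⊕ Fin 2) q)) ∧ ρ (Sum.inr x.1, x.2) ∈ T) fun ρ h => ?_).trans
    ((lg_frac_exists_le _ (c := (2 * (q + 1) + 1) / Fintype.card V) fun x _ => ?_).trans_eq (by simp; ring))
  · simp only [lg_N, not_forall] at h
    obtain ⟨o, j, h⟩ := h
    obtain ⟨o', j', e⟩ := (lg_inl_or _).resolve_left h
    exact ⟨(o, j), Finset.mem_univ _, Finset.notMem_empty _,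
      Finset.mem_image.2 ⟨(o', j'), Finset.mem_univ _, e.symm⟩⟩
  · refine (p_resample (fun _ => ∅) (fun _ => T) (fun _ => (Sum.inr x.1, x.2)) 0 (2 * (q + 1)) (fun _ => le_rfl)
      (fun _ => hT) (fun _ _ h => absurd h (Finset.notMem_empty _)) fun _ _ _ => ⟨rfl, rfl⟩).trans
      ((p_div_HE (by positivity)).trans ?_)
    push_cast
    rw [add_zero]
    exact div_le_div_of_nonneg_left (by positivity) hV' (by simp)

variable (π : Measure II) [IsProbabilityMeasure π]

/-- integration over the potentials -/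
def lg_Phi (φ : Cfg (V ⊕ Fin 2) q → ℝ) (ρ : Pairing (V ⊕ Fin 2) q) : ℝ := ∫ ω, φ (ρ, ω) ∂Measure.pi fun _ => π

theorem lg_gE_eq {φ : Cfg (V ⊕ Fin 2) q → ℝ} (hφ : Measurable φ) (hb : ∀ c, |φ c| ≤ 1) :
    (gE π V fun c α w => φ (glueC c α w)) =
      avg fun x : Pairing V q × (Fin (q + 1) → HE V q) => ind (Disj x.1 x.2) * lg_Phi π φ (glue x.1 x.2) := by
  have e0 : ∀ (c : Cfg V q) α w, (if Disj c.1 α then φ (glueC c α w) else 0) =
      ind (Disj c.1 α) * φ (glueC c α w) := fun c α w => by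
    by_cases h : Disj c.1 α <;> simp [ind, h]
  have m0 : ∀ α, Measurable fun p : Cfg V q × (Fin 2 → II) => ind (Disj p.1.1 α) * φ (glueC p.1 α p.2) :=
    fun α => ((lg_meas_fst fun σ => ind (Disj σ α)).comp measurable_fst).mul (hφ.comp (lg_meas_glue α))
  have e1 : ∀ c : Cfg V q, ∫ w, (avg fun α => ind (Disj c.1 α) * φ (glueC c α w)) ∂(Measure.pi fun _ => π) =
      avg fun α => ∫ w, ind (Disj c.1 α) * φ (glueC c α w) ∂(Measure.pi fun _ => π) := fun c =>
    lg_int_avg fun α => lg_integrable ((m0 α).comp measurable_prodMk_left) fun w => lg_abs_ind_mul _ (hb _)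
  simp only [gE, e0, e1]
  rw [lg_int_cfg_avg π (fun α => ((m0 α).stronglyMeasurable.integral_prod_right'
    (ν := Measure.pi fun _ => π)).measurable)
    fun c α => lg_abs_int_le zero_le_one fun w => lg_abs_ind_mul _ (hb _), p_avg_prod]
  congr 1; funext σ
  congr 1; funext α
  have mp : MeasurePreserving (fun p : (V → II) × (Fin 2 → II) => Sum.elim p.1 p.2)
      ((Measure.pi fun _ => π).prod (Measure.pi fun _ => π)) (Measure.pi fun _ => π) := by
    convert measurePreserving_sumPiEquivProdPi_symm (X := fun _ : V ⊕ Fin 2 => II) fun _ => π using 1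
    funext p v
    cases v <;> rfl
  have m1 : Measurable fun ω => φ (glue σ α, ω) := hφ.comp measurable_prodMk_left
  rw [lg_Phi, ← mp.map_eq, integral_map mp.measurable.aemeasurable m1.aestronglyMeasurable,
    integral_prod (fun p : (V → II) × (Fin 2 → II) => φ (glue σ α, Sum.elim p.1 p.2))
      (lg_integrable (m1.comp mp.measurable) fun p => hb _), ← integral_const_mul]
  congr 1; funext ω
  exact integral_const_mul (ind (Disj σ α)) _

theorem lg_glue_cmp {φ : Cfg (V ⊕ Fin 2) q → ℝ} (hφ : Measurable φ) (hb : ∀ c, |φ c| ≤ 1)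
    (hV : 1 ≤ Fintype.card V) :
    |∫ c, φ c ∂cfgLaw (V ⊕ Fin 2) q π - gE π V fun c α w => φ (glueC c α w)| ≤
      ((q + 1) ^ 2 * 2 + 2 * (2 * (q + 1) * (2 * (q + 1) + 1))) / Fintype.card V ∧
    ((∀ c, 0 ≤ φ c) → ((q : ℝ) + 1) ^ 2 * 4 ≤ Fintype.card V →
      ∫ c, ind (lg_N c.1) * φ c ∂cfgLaw (V ⊕ Fin 2) q π ≤ 2 * gE π V fun c α w => φ (glueC c α w)) := by
  have hV' : (0 : ℝ) < Fintype.card V := by exact_mod_cast hV
  obtain ⟨k1, k2⟩ := lg_abstr (p := fun x : Pairing V q × (Fin (q + 1) → HE V q) => Disj x.1 x.2) (r := lg_N)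
    (f := fun x => glue x.1 x.2) (fun x => lg_glue_N) (fun x x' => lg_glue_inj) lg_glue_surj (lg_Phi π φ)
  rw [lg_gE_eq π hφ hb]
  refine ⟨?_, fun h0 hn => ?_⟩
  · rw [lg_int_cfg π hφ hb]
    refine (k1 fun ρ => lg_abs_int_le zero_le_one fun ω => hb _).trans ?_
    rw [add_div, mul_div_assoc 2]
    exact add_le_add lg_frac_disj (mul_le_mul_of_nonneg_left (lg_frac_N hV) zero_le_two)
  · rw [lg_int_cfg π (F := fun c => ind (lg_N c.1) * φ c) ((lg_meas_fst fun ρ => ind (lg_N ρ)).mul hφ)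
      fun c => lg_abs_ind_mul _ (hb _)]
    refine le_trans (le_of_eq ?_) (k2 (fun ρ => integral_nonneg fun ω => h0 _) (lg_frac_disj.trans ?_))
    · congr 1; funext ρ
      exact integral_const_mul (ind (lg_N ρ)) _
    · rw [div_le_iff₀ hV']; linarith

theorem lg_int_relabel {V' : Type} [Fintype V'] [DecidableEq V'] (e : V ≃ V') {φ : Cfg V' q → ℝ}
    (hφ : Measurable φ) : ∫ c, φ c ∂cfgLaw V' q π = ∫ c, φ (relabel e c) ∂cfgLaw V q π := by
  rw [← (lg_law_relabel π e).map_eq,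
    integral_map (lg_law_relabel π e).measurable.aemeasurable hφ.aestronglyMeasurable]

theorem lg_exch {V' : Type} [Fintype V'] [DecidableEq V'] {g : FamH q} (hg : g.OK)
    (hc : Fintype.card V' = Fintype.card V) (hb : ∀ c h, |g V' c h| ≤ 1) (o : V) :
    ∫ c, avg (g V' c) ∂cfgLaw V' q π = avg fun i => ∫ c, g V c (o, i) ∂cfgLaw V q π := by
  have := lg_law_le (V := V') (q := q) π
  let e := Fintype.equivOfCardEq hc
  have : Nonempty V' := ⟨e.symm o⟩
  rw [lg_int_avg fun h => lg_integrable (hg.meas V' h) fun c => hb c h, p_avg_prod,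
    ← p_avg_const (ι := V') (avg fun i => ∫ c, g V c (o, i) ∂cfgLaw V q π)]
  congr 1; funext v
  congr 1; funext i
  rw [lg_int_relabel π (e.trans (Equiv.swap (e v) o)) (hg.meas V (o, i))]
  congr 1; funext c
  have := hg.inv V' V (e.trans (Equiv.swap (e v) o)) c (v, i)
  simpa using this.symm

/-- no loops -/
def lg_NL (σ : Pairing V q) : Prop := ∀ h, (σ h).1 ≠ h.1

theorem lg_NL_inv {V' : Type} [Fintype V'] [DecidableEq V'] (e : V ≃ V') (c : Cfg V q) :
    lg_NL (relabel e c).1 ↔ lg_NL c.1 := by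
  rw [lg_NL, ← (lg_eH q e).forall_congr_right]
  simp only [lg_eH_apply, lg_inv_sigma, ne_eq, EmbeddingLike.apply_eq_iff_eq, lg_NL]

theorem lg_second {g : FamH q} (hg : g.OK) (hb : ∀ c h, |g (V ⊕ Fin 2) c h| ≤ 1)
    (h0 : ∀ c h, 0 ≤ g (V ⊕ Fin 2) c h) (hn : 2 * ((q : ℝ) + 1) ≤ Fintype.card V) (i : Fin (q + 1)) :
    ∫ c, ind (lg_NL c.1) * g (V ⊕ Fin 2) c (oH V i) ∂cfgLaw (V ⊕ Fin 2) q π ≤
      2 * ∫ c, ind (lg_N c.1) * g (V ⊕ Fin 2) c (oH V i) ∂cfgLaw (V ⊕ Fin 2) q π := by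
  have := lg_law_le (V := V ⊕ Fin 2) (q := q) π
  have hq : (0 : ℝ) < q + 1 := by positivity
  have hV' : (0 : ℝ) < Fintype.card V := by linarith
  have : Nonempty V := Fintype.card_pos_iff.1 (by exact_mod_cast hV')
  let A : V ⊕ Fin 2 → Pairing (V ⊕ Fin 2) q → Prop := fun v ρ => lg_NL ρ ∧ ∀ j, (ρ (Sum.inr 0, j)).1 ≠ v
  have mA : ∀ v, Measurable fun c : Cfg (V ⊕ Fin 2) q => ind (A v c.1) * g (V ⊕ Fin 2) c (oH V i) := fun v =>
    (lg_meas_fst fun ρ => ind (A v ρ)).mul (hg.meas _ _)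
  have iA : ∀ v, Integrable (fun c => ind (A v c.1) * g (V ⊕ Fin 2) c (oH V i)) (cfgLaw (V ⊕ Fin 2) q π) :=
    fun v => lg_integrable (mA v) fun c => lg_abs_ind_mul _ (hb _ _)
  have e1 : ∀ v : V, ∫ c, ind (A (Sum.inr 1) c.1) * g (V ⊕ Fin 2) c (oH V i) ∂cfgLaw (V ⊕ Fin 2) q π =
      ∫ c, ind (A (Sum.inl v) c.1) * g (V ⊕ Fin 2) c (oH V i) ∂cfgLaw (V ⊕ Fin 2) q π := fun v => by
    set e : V ⊕ Fin 2 ≃ V ⊕ Fin 2 := Equiv.swap (Sum.inl v) (Sum.inr 1) with he
    have eo : e (Sum.inr 0) = Sum.inr 0 := Equiv.swap_apply_of_ne_of_ne (by simp) (by simp)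
    have ev : e (Sum.inl v) = Sum.inr 1 := Equiv.swap_apply_left _ _
    rw [lg_int_relabel π e (mA _)]
    congr 1; funext c
    have g1 := hg.inv _ _ e c (oH V i)
    have g2 : ∀ j, ((relabel e c).1 (Sum.inr 0, j)).1 ≠ Sum.inr 1 ↔ (c.1 (Sum.inr 0, j)).1 ≠ Sum.inl v := fun j => by
      have := lg_inv_sigma e c (Sum.inr 0, j)
      simp only [eo] at this
      rw [this, ← ev]
      exact e.apply_eq_iff_eq.not
    simp only [oH, eo] at g1
    simp only [A, oH, g1, g2, lg_NL_inv]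
  have e2 : ∀ ρ, ind (lg_NL ρ) ≤ 2 * avg fun v : V => ind (A (Sum.inl v) ρ) := fun ρ => by
    by_cases h : lg_NL ρ
    · have f1 := lg_frac_not fun v : V => A (Sum.inl v) ρ
      have f2 : frac (fun v : V => ¬ A (Sum.inl v) ρ) ≤ (q + 1) / Fintype.card V := by
        refine p_frac_le_card (T := (Finset.univ.image fun j => (ρ (Sum.inr 0, j)).1).preimage Sum.inl
          Sum.inl_injective.injOn) (fun v hv => ?_) ?_
        · simp only [A, h, true_and, not_forall, not_not] at hv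
          simpa using hv
        · exact_mod_cast (Finset.card_le_card_of_injOn _ (fun a ha => Finset.mem_preimage.1 ha)
            Sum.inl_injective.injOn).trans (Finset.card_image_le.trans (by simp))
      have f3 : ((q : ℝ) + 1) / Fintype.card V ≤ 1 / 2 := by rw [div_le_iff₀ hV']; linarith
      rw [avg]
      linarith [lg_ind_le (lg_NL ρ)]
    · rw [ind, if_neg h]
      exact mul_nonneg zero_le_two (p_avg_nonneg fun v => lg_ind_nonneg _)
  have e3 : ∀ ρ, A (Sum.inr 1) ρ → lg_N ρ := fun ρ h o j => by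
    refine (lg_inl_or _).resolve_right fun ⟨o', j', e⟩ => ?_
    have n1 := h.1 (Sum.inr o, j)
    rw [e] at n1
    fin_cases o <;> fin_cases o'
    · exact n1 rfl
    · exact h.2 j (congrArg Prod.fst e)
    · exact h.2 j' (congrArg Prod.fst ((p_eq_iff ρ).1 e).symm)
    · exact n1 rfl
  calc _ ≤ ∫ c, 2 * avg fun v : V => ind (A (Sum.inl v) c.1) * g (V ⊕ Fin 2) c (oH V i)
        ∂cfgLaw (V ⊕ Fin 2) q π := by
        refine integral_mono_of_nonneg (Eventually.of_forall fun c => mul_nonneg (lg_ind_nonneg _) (h0 _ _))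
          ((lg_integrable (lg_meas_avg fun v => mA _) fun c => lg_abs_avg_le zero_le_one fun v =>
            lg_abs_ind_mul _ (hb _ _)).const_mul 2) (Eventually.of_forall fun c => ?_)
        simp only [mul_comm (ind (A _ _)), p_avg_mul]
        nlinarith [mul_le_mul_of_nonneg_right (e2 c.1) (h0 c (oH V i))]
    _ = 2 * ∫ c, ind (A (Sum.inr 1) c.1) * g (V ⊕ Fin 2) c (oH V i) ∂cfgLaw (V ⊕ Fin 2) q π := by
        rw [integral_const_mul, lg_int_avg fun v => iA _]
        simp only [← e1, p_avg_const]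
    _ ≤ _ := by
        refine mul_le_mul_of_nonneg_left (integral_mono (iA _) (lg_integrable
          ((lg_meas_fst fun ρ => ind (lg_N ρ)).mul (hg.meas _ _)) fun c => lg_abs_ind_mul _ (hb _ _))
          fun c => mul_le_mul_of_nonneg_right (lg_ind_mono (e3 _)) (h0 _ _)) zero_le_two

end glue

theorem stGX : StGX := by
  intro q
  have hq : (1 : ℝ) ≤ q + 1 := by linarith [Nat.cast_nonneg (α := ℝ) q]
  refine ⟨(q + 1) ^ 2 * 2 + 2 * (2 * (q + 1) * (2 * (q + 1) + 1)), fun π _ V V' _ _ _ _ g hg hV hc hb => ?_⟩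
  have hc' : Fintype.card V' = Fintype.card (V ⊕ Fin 2) := by simp [hc]
  refine ⟨?_, fun hn h0 => ?_⟩
  · rw [lg_exch π hg hc' (hb V') (Sum.inr 0)]
    have e : ∀ a b : Fin (q + 1) → ℝ, avg a - avg b = avg fun i => a i - b i := fun a b => by
      simp only [avg, Finset.sum_sub_distrib, sub_div]
    rw [e]
    exact lg_abs_avg_le (by positivity) fun i =>
      (lg_glue_cmp π (hg.meas (V ⊕ Fin 2) (oH V i)) (fun c => hb _ c _) hV).1
  · have := lg_law_le (V := V') (q := q) π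
    let g' : FamH q := fun W _ _ c h => ind (lg_NL c.1) * g W c h
    have hg' : g'.OK := ⟨fun W W' _ _ _ _ e c h => by simp only [g', lg_NL_inv, hg.inv],
      fun W _ _ h => (lg_meas_fst fun σ => ind (lg_NL σ)).mul (hg.meas W h)⟩
    have hb' : ∀ c h, |g' V' c h| ≤ 1 := fun c h => lg_abs_ind_mul _ (hb _ _ _)
    have hE : ∀ i, 0 ≤ gE π V fun c α w => g (V ⊕ Fin 2) (glueC c α w) (oH V i) := fun i =>
      integral_nonneg fun c => integral_nonneg fun w => p_avg_nonneg fun α => by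
        split_ifs
        · exact h0 _ _ _
        · exact le_rfl
    calc _ ≤ ∫ c, avg (g' V' c) ∂cfgLaw V' q π := by
          refine integral_mono_of_nonneg (Eventually.of_forall fun c => mul_nonneg (lg_ind_nonneg _)
            (p_avg_nonneg (h0 _ c))) (lg_integrable (lg_meas_avg (hg'.meas V')) fun c =>
            lg_abs_avg_le zero_le_one (hb' c)) (Eventually.of_forall fun c => ?_)
          exact (mul_le_mul_of_nonneg_right (lg_ind_mono fun h => h.1) (p_avg_nonneg (h0 _ c))).trans_eq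
            (p_avg_mul _ _).symm
      _ = avg fun i => ∫ c, g' (V ⊕ Fin 2) c (Sum.inr 0, i) ∂cfgLaw (V ⊕ Fin 2) q π :=
          lg_exch π hg' hc' hb' (Sum.inr 0)
      _ ≤ avg fun i => 4 * gE π V fun c α w => g (V ⊕ Fin 2) (glueC c α w) (oH V i) := by
          refine p_avg_mono fun i => (lg_second π hg (hb _) (h0 _) (by nlinarith) i).trans ?_
          have := (lg_glue_cmp π (hg.meas (V ⊕ Fin 2) (oH V i)) (fun c => hb _ c _) hV).2
            (fun c => h0 _ c _) (by nlinarith)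
          linarith
      _ ≤ _ := by
          rw [p_avg_mul]
          exact mul_le_mul_of_nonneg_right (by nlinarith) (p_avg_nonneg hE)

end Crest.Agent.R166
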