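import Crest.Agent.R166.LL.Iface
import Crest.Agent.R166.P.Basic

/-!
# R166/LG/Kit: measurability, relabelling invariance, description of `glue` (`StKit`)
-/

set_option autoImplicit false
set_option linter.unusedSectionVars false

open MeasureTheory ProbabilityTheory Filter Topology
open scoped ENNReal

noncomputable section

namespace Crest.Agent.R166

section meas
variable {V : Type} [Fintype V] [DecidableEq V] {q : ℕ}

theorem lg_meas_Gr {X : Type} [MeasurableSpace X] {M : X → Matrix V V ℝ} (hM : ∀ i j, Measurable fun x => M x i j)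
    (z : ℂ) (x y : V) : Measurable fun w => Gr (M w) z x y := by
  have h1 : Measurable fun w => (M w).map (fun x : ℝ => (x : ℂ)) - z • (1 : Matrix V V ℂ) := by
    refine measurable_pi_lambda _ fun i => measurable_pi_lambda _ fun j => ?_
    exact (Complex.measurable_ofReal.comp (hM i j)).sub measurable_const
  have h2 : Measurable fun A : Matrix V V ℂ => A⁻¹ x y := by
    simp only [Matrix.inv_def, Ring.inverse_eq_inv', Matrix.smul_apply, smul_eq_mul]
    exact (continuous_id.matrix_det.measurable.inv).mul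
      (continuous_id.matrix_adjugate.matrix_elem x y).measurable
  exact h2.comp h1

/-- a measurable family may be evaluated at an index depending on the pairing -/
theorem lg_meas_sel {K Y : Type} [MeasurableSpace Y] {f : K → Cfg V q → Y} (hf : ∀ k, Measurable (f k))
    (κ : Pairing V q → K) : Measurable fun c : Cfg V q => f (κ c.1) c :=
  measurable_from_prod_countable_right fun σ => (hf (κ σ)).comp measurable_prodMk_left

theorem lg_meas_fst {Y : Type} [MeasurableSpace Y] (f : Pairing V q → Y) : Measurable fun c : Cfg V q => f c.1 :=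
  (Measurable.of_discrete (f := f)).comp measurable_fst

theorem lg_meas_Hm (s : ℝ) (i j : V) : Measurable fun c : Cfg V q => Hm s c i j := by
  simp only [Hm, Matrix.add_apply, Matrix.diagonal_apply]
  refine (lg_meas_fst fun σ => adj σ i j).add ?_
  split_ifs
  · exact (measurable_subtype_coe.comp ((measurable_pi_apply i).comp measurable_snd)).const_mul s
  · exact measurable_const

theorem lg_meas_Gc (s : ℝ) (z : ℂ) (h : HE V q) (x y : V) : Measurable fun c : Cfg V q => Gc s z c h x y :=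
  lg_meas_Gr (fun i j => (lg_meas_Hm s i j).sub (lg_meas_fst fun σ => edgeM σ h i j)) z x y

theorem lg_meas_Yc (s : ℝ) (z : ℂ) (h : HE V q) : Measurable fun c : Cfg V q => Yc s z c h :=
  lg_meas_Gc s z h _ _

theorem lg_meas_Yc' (s : ℝ) (z : ℂ) (h : HE V q) : Measurable fun c : Cfg V q => Yc s z c (c.1 h) :=
  lg_meas_sel (f := fun k c => Yc s z c k) (lg_meas_Yc s z) fun σ => σ h

theorem lg_meas_dec (s : ℝ) (z : ℂ) (e : ℝ) (h : HE V q) : MeasurableSet {c : Cfg V q | dec s z e c h} := by
  refine measurableSet_le ((lg_meas_sel (f := fun k c => Gc s z c h h.1 k) (lg_meas_Gc s z h _)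
    fun σ => (σ h).1).norm.pow_const 2) ?_
  exact ((Complex.measurable_im.comp (lg_meas_Yc s z h)).mul
    (Complex.measurable_im.comp (lg_meas_Yc' s z h))).const_mul _

theorem lg_meas_hyp : Measurable hyp :=
  ((measurable_norm.pow_const 2).const_add 1).div Complex.measurable_im

theorem lg_meas_good (s : ℝ) (z : ℂ) (T e : ℝ) (h : HE V q) :
    MeasurableSet {c : Cfg V q | good s z T e c h} :=
  (lg_meas_dec s z e h).inter ((measurableSet_le (lg_meas_hyp.comp (lg_meas_Yc s z h)) measurable_const).inter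
    (measurableSet_le (lg_meas_hyp.comp (lg_meas_Yc' s z h)) measurable_const))

theorem lg_meas_avg {X ι : Type} [MeasurableSpace X] [Fintype ι] {f : X → ι → ℝ}
    (hf : ∀ i, Measurable fun x => f x i) : Measurable fun x => avg (f x) :=
  (Finset.measurable_sum _ fun i _ => hf i).div_const _

theorem lg_meas_frac {X ι : Type} [MeasurableSpace X] [Fintype ι] {p : X → ι → Prop}
    (hp : ∀ i, MeasurableSet {x | p x i}) : Measurable fun x => frac (p x) := by
  classical
  exact lg_meas_avg fun i => Measurable.ite (hp i) measurable_const measurable_const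

theorem lg_meas_view (h : HE V q) : Measurable fun c : Cfg V q => view c h :=
  measurable_pi_lambda _ fun l => lg_meas_sel (f := fun k c => c.2 k)
    (fun k => (measurable_pi_apply k).comp measurable_snd) fun σ => (walk σ h l).1

theorem lg_meas_cons {X : Type} [MeasurableSpace X] {a : X → II} {β : X → Fin q → Env q} (ha : Measurable a)
    (hβ : ∀ j, Measurable fun x => β x j) : Measurable fun x => cons (a x) (β x) := by
  refine measurable_pi_lambda _ fun l => ?_
  cases l with
  | nil => exact ha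
  | cons j l => exact (measurable_pi_apply l).comp (hβ j)

theorem lg_meas_Psi {X : Type} [MeasurableSpace X] (s : ℝ) (z : ℂ) {a : X → II} {Y : X → Fin q → ℂ}
    (ha : Measurable a) (hY : ∀ j, Measurable fun x => Y x j) : Measurable fun x => Psi s z (a x) (Y x) :=
  ((((Complex.measurable_ofReal.comp (measurable_subtype_coe.comp ha)).const_mul _).const_sub z).add
    (Finset.measurable_sum _ fun j _ => hY j)).inv.neg

theorem lg_meas_RB (π : Measure II) [IsProbabilityMeasure π] (s : ℝ) (z : ℂ) {F : ℂ × Env q → ℝ}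
    (hF : Measurable F) : Measurable fun c : Cfg V q => RB π s z F c := by
  have : Measurable fun p : Cfg V q × II => avg fun h : Fin q → HE V q =>
      F (Psi s z p.2 (fun j => Yc s z p.1 (h j)), cons p.2 fun j => view p.1 (h j)) :=
    lg_meas_avg fun h => hF.comp
      ((lg_meas_Psi s z measurable_snd fun j => (lg_meas_Yc s z (h j)).comp measurable_fst).prodMk
        (lg_meas_cons measurable_snd fun j => (lg_meas_view (h j)).comp measurable_fst))
  exact (this.stronglyMeasurable.integral_prod_right' (ν := π)).measurable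

theorem lg_meas_elim : Measurable fun p : (V → II) × (Fin 2 → II) => Sum.elim p.1 p.2 := by
  refine measurable_pi_lambda _ fun v => ?_
  cases v with
  | inl v => exact (measurable_pi_apply v).comp measurable_fst
  | inr v => exact (measurable_pi_apply v).comp measurable_snd

theorem lg_meas_glue (α : Fin (q + 1) → HE V q) :
    Measurable fun p : Cfg V q × (Fin 2 → II) => glueC p.1 α p.2 :=
  ((lg_meas_fst fun σ => glue σ α).comp measurable_fst).prodMk
    (lg_meas_elim.comp ((measurable_snd.comp measurable_fst).prodMk measurable_snd))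

end meas

section inv
variable {V V' : Type} [Fintype V] [DecidableEq V] [Fintype V'] [DecidableEq V'] {q : ℕ}

/-- relabelling of half-edges -/
def lg_eH (q : ℕ) (e : V ≃ V') : HE V q ≃ HE V' q := e.prodCongr (Equiv.refl _)

theorem lg_eH_apply (e : V ≃ V') (h : HE V q) : lg_eH q e h = (e h.1, h.2) := rfl

theorem lg_inv_sigma (e : V ≃ V') (c : Cfg V q) (h : HE V q) :
    (relabel e c).1 (e h.1, h.2) = (e (c.1 h).1, (c.1 h).2) := by
  change (lg_eH q e).permCongr c.1.1 (lg_eH q e h) = _
  rw [Equiv.permCongr_apply, Equiv.symm_apply_apply]; rfl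

theorem lg_inv_Hm (s : ℝ) (e : V ≃ V') (c : Cfg V q) :
    (Hm s (relabel e c)).submatrix e e = Hm s c := by
  ext x y
  simp only [Hm, Matrix.submatrix_apply, Matrix.add_apply, Matrix.diagonal_apply, adj,
    EmbeddingLike.apply_eq_iff_eq]
  have h1 : ∀ i : Fin (q + 1), ((relabel e c).1 (e x, i)).1 = e y ↔ (c.1 (x, i)).1 = y := fun i => by
    rw [lg_inv_sigma e c (x, i)]; exact e.apply_eq_iff_eq
  simp only [h1]
  simp [relabel]

theorem lg_inv_edgeM (e : V ≃ V') (c : Cfg V q) (h : HE V q) :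
    (edgeM (relabel e c).1 (e h.1, h.2)).submatrix e e = edgeM c.1 h := by
  ext x y
  simp only [edgeM, lg_inv_sigma, Matrix.submatrix_apply, Matrix.add_apply, Matrix.single_apply,
    EmbeddingLike.apply_eq_iff_eq]

theorem lg_Gr_sub (A : Matrix V' V' ℝ) (z : ℂ) (e : V ≃ V') (x y : V) :
    Gr A z (e x) (e y) = Gr (A.submatrix e e) z x y := by
  have : (A.submatrix e e).map (fun x : ℝ => (x : ℂ)) - z • (1 : Matrix V V ℂ) =
      (A.map (fun x : ℝ => (x : ℂ)) - z • (1 : Matrix V' V' ℂ)).submatrix e e := by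
    ext i j; simp [Matrix.one_apply]
  rw [Gr, Gr, this, Matrix.inv_submatrix_equiv]; rfl

theorem lg_inv_Gc (s : ℝ) (z : ℂ) (e : V ≃ V') (c : Cfg V q) (h : HE V q) (x y : V) :
    Gc s z (relabel e c) (e h.1, h.2) (e x) (e y) = Gc s z c h x y := by
  rw [Gc, lg_Gr_sub, Matrix.submatrix_sub, Pi.sub_apply, Pi.sub_apply, lg_inv_Hm, lg_inv_edgeM, Gc]

theorem lg_inv_Yc (s : ℝ) (z : ℂ) (e : V ≃ V') (c : Cfg V q) (h : HE V q) :
    Yc s z (relabel e c) (e h.1, h.2) = Yc s z c h := lg_inv_Gc s z e c h _ _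

theorem lg_inv_dec (s : ℝ) (z : ℂ) (ε : ℝ) (e : V ≃ V') (c : Cfg V q) (h : HE V q) :
    dec s z ε (relabel e c) (e h.1, h.2) ↔ dec s z ε c h := by
  simp only [dec, lg_inv_sigma, lg_inv_Yc, lg_inv_Gc]

theorem lg_inv_good (s : ℝ) (z : ℂ) (T ε : ℝ) (e : V ≃ V') (c : Cfg V q) (h : HE V q) :
    good s z T ε (relabel e c) (e h.1, h.2) ↔ good s z T ε c h := by
  simp only [good, lg_inv_sigma, lg_inv_Yc, lg_inv_dec]

theorem lg_inv_bad (s : ℝ) (z : ℂ) (T ε : ℝ) (e : V ≃ V') (c : Cfg V q) :
    bad s z T ε (relabel e c) = bad s z T ε c := by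
  rw [bad, ← p_frac_equiv (lg_eH q e)]
  simp only [lg_eH_apply, lg_inv_good, bad]

theorem lg_inv_walk (e : V ≃ V') (c : Cfg V q) (h : HE V q) (l : List (Fin q)) :
    walk (relabel e c).1 (e h.1, h.2) l = (e (walk c.1 h l).1, (walk c.1 h l).2) := by
  induction l generalizing h with
  | nil => rfl
  | cons j l ih =>
    have := lg_inv_sigma e c (rot h j.succ)
    exact (congrArg (fun x => walk (relabel e c).1 x l) this).trans (ih _)

theorem lg_inv_view (e : V ≃ V') (c : Cfg V q) (h : HE V q) : view (relabel e c) (e h.1, h.2) = view c h := by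
  funext l
  rw [view, lg_inv_walk]
  simp [relabel, view]

theorem lg_inv_RA (s : ℝ) (z : ℂ) (e : V ≃ V') (c : Cfg V q) (F : ℂ × Env q → ℝ) :
    RA s z F (relabel e c) = RA s z F c := by
  rw [RA, ← p_avg_equiv (lg_eH q e)]
  simp only [lg_eH_apply, lg_inv_Yc, lg_inv_view, RA]

theorem lg_inv_RB (π : Measure II) (s : ℝ) (z : ℂ) (e : V ≃ V') (c : Cfg V q) (F : ℂ × Env q → ℝ) :
    RB π s z F (relabel e c) = RB π s z F c := by
  unfold RB
  congr 1; funext a
  rw [← p_avg_equiv (Equiv.piCongrRight fun _ : Fin q => lg_eH q e)]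
  simp only [Equiv.piCongrRight_apply, Pi.map_apply, lg_eH_apply, lg_inv_Yc, lg_inv_view]

/-- relabelling of pairings -/
def lg_relP (q : ℕ) (e : V ≃ V') : Pairing V q ≃ Pairing V' q where
  toFun σ := (relabel e (σ, default)).1
  invFun σ := (relabel e.symm (σ, default)).1
  left_inv σ := p_ext fun h => by
    have h1 := lg_inv_sigma e.symm ((relabel e (σ, default)).1, default) (e h.1, h.2)
    have h2 := lg_inv_sigma e (σ, default) h
    simp only [Equiv.symm_apply_apply] at h1
    rw [h1, h2]; simp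
  right_inv σ := p_ext fun h => by
    have h1 := lg_inv_sigma e ((relabel e.symm (σ, default)).1, default) (e.symm h.1, h.2)
    have h2 := lg_inv_sigma e.symm (σ, default) h
    simp only [Equiv.apply_symm_apply] at h1
    rw [h1, h2]; simp

theorem lg_mp_uniform {ι κ : Type} [Fintype ι] [Fintype κ] [MeasurableSpace ι] [DiscreteMeasurableSpace ι]
    [MeasurableSpace κ] [DiscreteMeasurableSpace κ] (e : ι ≃ κ) :
    MeasurePreserving e (uniformOn (Set.univ : Set ι)) (uniformOn (Set.univ : Set κ)) := by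
  refine ⟨Measurable.of_discrete, Measure.ext fun s hs => ?_⟩
  rw [Measure.map_apply Measurable.of_discrete hs]
  exact (p_uniform_apply fun i => e i ∈ s).trans
    ((congrArg _ (p_frac_equiv e fun i => i ∈ s)).trans (p_uniform_apply fun i => i ∈ s).symm)

theorem lg_law_relabel (π : Measure II) [IsProbabilityMeasure π] (e : V ≃ V') :
    MeasurePreserving (relabel (q := q) e) (cfgLaw V q π) (cfgLaw V' q π) :=
  (lg_mp_uniform (lg_relP q e)).prod (measurePreserving_arrowCongr' (fun _ => π) (fun _ => π) e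
    (MeasurableEquiv.refl II) fun _ => MeasurePreserving.id π)

theorem lg_law_le (π : Measure II) [IsProbabilityMeasure π] : IsZeroOrProbabilityMeasure (cfgLaw V q π) := by
  unfold cfgLaw
  rcases eq_zero_or_isProbabilityMeasure (uniformOn (Set.univ : Set (Pairing V q))) with h | h
  · rw [h, Measure.zero_prod]; infer_instance
  · infer_instance

end inv

section glue

theorem lg_swaps {X : Type} [DecidableEq X] : ∀ (n : ℕ) (a b : Fin n → X), Function.Injective a →
    Function.Injective b → (∀ i j, a i ≠ b j) →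
    (∀ j, (List.ofFn fun j => Equiv.swap (a j) (b j)).prod (a j) = b j) ∧
    (∀ j, (List.ofFn fun j => Equiv.swap (a j) (b j)).prod (b j) = a j) ∧
    ∀ x, (∀ j, x ≠ a j ∧ x ≠ b j) → (List.ofFn fun j => Equiv.swap (a j) (b j)).prod x = x
  | 0, _, _, _, _, _ => ⟨fun j => j.elim0, fun j => j.elim0, fun _ _ => rfl⟩
  | n + 1, a, b, ha, hb, hab => by
    obtain ⟨h1, h2, h3⟩ := lg_swaps n (fun j => a j.succ) (fun j => b j.succ)
      (ha.comp (Fin.succ_injective n)) (hb.comp (Fin.succ_injective n)) fun i j => hab _ _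
    simp only [List.ofFn_succ, List.prod_cons, Equiv.Perm.mul_apply]
    refine ⟨fun j => ?_, fun j => ?_, fun x hx => ?_⟩
    · refine Fin.cases ?_ (fun j => ?_) j
      · rw [h3 _ fun j => ⟨ha.ne (Fin.succ_ne_zero j).symm, hab _ _⟩, Equiv.swap_apply_left]
      · rw [h1, Equiv.swap_apply_of_ne_of_ne (hab _ _).symm (hb.ne (Fin.succ_ne_zero j))]
    · refine Fin.cases ?_ (fun j => ?_) j
      · rw [h3 _ fun j => ⟨(hab _ _).symm, hb.ne (Fin.succ_ne_zero j).symm⟩, Equiv.swap_apply_right]
      · rw [h2, Equiv.swap_apply_of_ne_of_ne (ha.ne (Fin.succ_ne_zero j)) (hab _ _)]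
    · rw [h3 _ fun j => hx _, Equiv.swap_apply_of_ne_of_ne (hx 0).1 (hx 0).2]

variable {V : Type} [Fintype V] [DecidableEq V] {q : ℕ}

theorem lg_inlH_inj : Function.Injective (inlH : HE V q → _) := fun _ _ e =>
  Prod.ext (Sum.inl_injective (congrArg Prod.fst e)) (congrArg Prod.snd e :)

theorem lg_inlH_ne (h : HE V q) (o : Fin 2) (j : Fin (q + 1)) : inlH h ≠ (Sum.inr o, j) := fun e =>
  Sum.inl_ne_inr (congrArg Prod.fst e)

/-- the conjugating permutation -/
def lg_tau (α : Fin (q + 1) → HE V q) : Equiv.Perm (HE (V ⊕ Fin 2) q) :=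
  (List.ofFn fun j => Equiv.swap (inlH (α j)) (oH V j)).prod

theorem lg_tau_spec {α : Fin (q + 1) → HE V q} (hα : Function.Injective α) :
    (∀ j, lg_tau α (inlH (α j)) = (Sum.inr 0, j)) ∧ (∀ j, lg_tau α (Sum.inr 0, j) = inlH (α j)) ∧
    (∀ j, lg_tau α (Sum.inr 1, j) = (Sum.inr 1, j)) ∧ ∀ h, (∀ j, h ≠ α j) → lg_tau α (inlH h) = inlH h := by
  obtain ⟨h1, h2, h3⟩ := lg_swaps (q + 1) (fun j => inlH (α j)) (oH V) (lg_inlH_inj.comp hα)
    (fun _ _ e => (congrArg Prod.snd e :)) fun i j => lg_inlH_ne _ _ _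
  refine ⟨h1, h2, fun j => h3 _ fun k => ⟨(lg_inlH_ne _ _ _).symm, fun e => ?_⟩,
    fun h hh => h3 _ fun j => ⟨lg_inlH_inj.ne (hh j), lg_inlH_ne _ _ _⟩⟩
  exact absurd (Sum.inr_injective (congrArg Prod.fst e)) (by decide)

theorem lg_glue_tau (σ : Pairing V q) (α : Fin (q + 1) → HE V q) (x : HE (V ⊕ Fin 2) q) :
    glue σ α (lg_tau α x) = lg_tau α (sum0 σ x) := by
  change lg_tau α (sum0 σ ((lg_tau α)⁻¹ (lg_tau α x))) = _
  rw [Equiv.Perm.inv_def, Equiv.symm_apply_apply]

theorem lg_disj_inj {σ : Pairing V q} {α : Fin (q + 1) → HE V q} (h : Disj σ α) : Function.Injective α :=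
  fun i j e => by_contra fun hij => (h i j hij).1 e

theorem lg_disj_ne {σ : Pairing V q} {α : Fin (q + 1) → HE V q} (h : Disj σ α) (i j : Fin (q + 1)) :
    σ (α i) ≠ α j := by
  rcases eq_or_ne j i with rfl | hij
  · exact p_ne σ _
  · exact (h j i hij).2.symm

theorem lg_glue_spec (σ : Pairing V q) (α : Fin (q + 1) → HE V q) (h : Disj σ α) :
    (∀ j, glue σ α (Sum.inr 0, j) = inlH (σ (α j))) ∧ (∀ j, glue σ α (Sum.inr 1, j) = inlH (α j)) ∧
    ∀ h, (∀ j, h ≠ α j ∧ h ≠ σ (α j)) → glue σ α (inlH h) = inlH (σ h) := by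
  obtain ⟨h1, h2, h3, h4⟩ := lg_tau_spec (lg_disj_inj h)
  refine ⟨fun j => ?_, fun j => ?_, fun x hx => ?_⟩
  · rw [← h1, lg_glue_tau]; exact h4 _ (lg_disj_ne h j)
  · rw [← h3, lg_glue_tau]; exact h2 j
  · rw [← h4 x fun j => (hx j).1, lg_glue_tau]
    exact h4 _ fun j e => (hx j).2 ((p_eq_iff σ).1 e)

end glue

theorem stKit : StKit where
  meas_Gr _ s z _ _ _ x y := lg_meas_Gr (lg_meas_Hm s) z x y
  meas_Yc _ s z _ _ _ h := lg_meas_Yc s z h
  meas_dec _ s z e _ _ _ h := lg_meas_dec s z e h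
  meas_good _ s z T e _ _ _ h := lg_meas_good s z T e h
  meas_bad _ s z T e _ _ _ := lg_meas_frac fun h => (lg_meas_good s z T e h).compl
  meas_view _ _ _ _ h := lg_meas_view h
  meas_sview _ _ _ _ h := ((measurable_pi_apply h.1).comp measurable_snd).prodMk
    (measurable_pi_lambda _ fun k => lg_meas_sel (f := fun x c => view c x) lg_meas_view fun σ => σ (rot h k))
  meas_RA _ s z _ _ _ _ hF := lg_meas_avg fun h => hF.comp ((lg_meas_Yc s z h).prodMk (lg_meas_view h))
  meas_RB _ π _ s z _ _ _ _ hF := lg_meas_RB π s z hF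
  meas_glue _ _ _ _ α := lg_meas_glue α
  inv_sigma _ _ _ _ _ _ _ e c h := lg_inv_sigma e c h
  inv_Gr _ s z _ _ _ _ _ _ e c x y := by rw [lg_Gr_sub, lg_inv_Hm]
  inv_Yc _ s z _ _ _ _ _ _ e c h := lg_inv_Yc s z e c h
  inv_dec _ s z ε _ _ _ _ _ _ e c h := lg_inv_dec s z ε e c h
  inv_good _ s z T ε _ _ _ _ _ _ e c h := lg_inv_good s z T ε e c h
  inv_bad _ s z T ε _ _ _ _ _ _ e c := lg_inv_bad s z T ε e c
  inv_view _ _ _ _ _ _ _ e c h := lg_inv_view e c h
  inv_RA _ s z _ _ _ _ _ _ e c F := lg_inv_RA s z e c F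
  inv_RB _ π s z _ _ _ _ _ _ e c F := lg_inv_RB π s z e c F
  law_relabel _ π _ _ _ _ _ _ _ e := lg_law_relabel π e
  law_le _ π _ _ _ _ := lg_law_le π
  glue_spec _ _ _ _ σ α h := lg_glue_spec σ α h

end Crest.Agent.R166
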