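import Crest.Agent.R166.LG.Kit
import Crest.Agent.R166.P.Tree

/-!
# R166/LG/SX: integration over configurations, the switch involution (`StSX`), views under gluing (`StView`)
-/

set_option autoImplicit false
set_option linter.unusedSectionVars false

open MeasureTheory ProbabilityTheory Filter Topology
open scoped ENNReal

noncomputable section

namespace Crest.Agent.R166

section gen
variable {ι κ : Type} [Fintype ι] [Fintype κ]

theorem lg_abs_avg_le {f : ι → ℝ} {c : ℝ} (hc : 0 ≤ c) (h : ∀ i, |f i| ≤ c) : |avg f| ≤ c := by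
  refine le_trans ?_ (p_avg_le hc h)
  rw [avg, avg, abs_div, Nat.abs_cast]
  exact div_le_div_of_nonneg_right (Finset.abs_sum_le_sum_abs _ _) (Nat.cast_nonneg _)

theorem lg_ind_nonneg (p : Prop) : 0 ≤ ind p := by unfold ind; split_ifs <;> norm_num

theorem lg_ind_le (p : Prop) : ind p ≤ 1 := by unfold ind; split_ifs <;> norm_num

theorem lg_abs_ind_mul (p : Prop) {x : ℝ} (hx : |x| ≤ 1) : |ind p * x| ≤ 1 := by
  unfold ind; split_ifs <;> simp [hx]

theorem lg_ind_mono {p p' : Prop} (h : p → p') : ind p ≤ ind p' := by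
  by_cases hp : p
  · simp [ind, hp, h hp]
  · simpa [ind, hp] using lg_ind_nonneg p'

theorem lg_frac_eq (p : ι → Prop) : frac p = avg fun i => ind (p i) := rfl

theorem lg_integrable {X : Type} [MeasurableSpace X] {μ : Measure X} [IsFiniteMeasure μ] {f : X → ℝ}
    (hf : Measurable f) {c : ℝ} (h : ∀ x, |f x| ≤ c) : Integrable f μ :=
  Integrable.of_bound hf.aestronglyMeasurable c (Eventually.of_forall h)

theorem lg_int_avg {X : Type} [MeasurableSpace X] {μ : Measure X} {f : X → ι → ℝ}
    (hf : ∀ i, Integrable (fun x => f x i) μ) : ∫ x, avg (f x) ∂μ = avg fun i => ∫ x, f x i ∂μ := by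
  simp only [avg]
  rw [integral_div, integral_finsetSum _ fun i _ => hf i]

theorem lg_abs_int_le {X : Type} [MeasurableSpace X] {μ : Measure X} [IsZeroOrProbabilityMeasure μ] {f : X → ℝ}
    {c : ℝ} (hc : 0 ≤ c) (h : ∀ x, |f x| ≤ c) : |∫ x, f x ∂μ| ≤ c :=
  (norm_integral_le_of_norm_le_const (μ := μ) (f := f) (Eventually.of_forall h)).trans
    (mul_le_of_le_one_right hc measureReal_le_one)

theorem lg_frac_exists {α : Type} (s : Finset α) (p : α → ι → Prop) :
    frac (fun i => ∃ a ∈ s, p a i) ≤ ∑ a ∈ s, frac (p a) := by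
  simp only [lg_frac_eq]
  rw [← p_avg_sum]
  refine p_avg_mono fun i => ?_
  by_cases h : ∃ a ∈ s, p a i
  · obtain ⟨a, ha, hp⟩ := h
    refine (lg_ind_le _).trans (le_trans ?_ (Finset.single_le_sum (fun a _ => lg_ind_nonneg (p a i)) ha))
    simp [ind, hp]
  · rw [ind, if_neg h]
    exact Finset.sum_nonneg fun a _ => lg_ind_nonneg _

theorem lg_frac_exists_le {α : Type} (s : Finset α) {p : α → ι → Prop} {c : ℝ} (h : ∀ a ∈ s, frac (p a) ≤ c) :
    frac (fun i => ∃ a ∈ s, p a i) ≤ s.card * c := by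
  refine (lg_frac_exists s p).trans ((Finset.sum_le_card_nsmul _ _ _ h).trans_eq (nsmul_eq_mul _ _))

/-- resampling one coordinate -/
theorem lg_frac_update [DecidableEq κ] (p : (κ → ι) → Prop) (k : κ) {c : ℝ} (hc : 0 ≤ c)
    (h : ∀ α : κ → ι, frac (fun x => p (Function.update α k x)) ≤ c) : frac p ≤ c := by
  cases isEmpty_or_nonempty ι with
  | inl _ =>
    rw [p_frac_eq_zero fun α => isEmptyElim (α k)]; exact hc
  | inr _ =>
    let e : (κ → ι) × ι ≃ (κ → ι) × ι := Function.Involutive.toPerm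
      (fun x => (Function.update x.1 k x.2, x.1 k)) fun x => by simp
    have h1 : frac (fun x : (κ → ι) × ι => p x.1) = frac p := by
      rw [p_frac_prod']; exact p_avg_const (ι := ι) (frac p)
    rw [← h1, ← p_frac_equiv e, p_frac_prod]
    exact p_avg_le hc h

end gen

section cfg
variable {V : Type} [Fintype V] [DecidableEq V] {q : ℕ}

theorem lg_int_cfg (π : Measure II) [IsProbabilityMeasure π] {F : Cfg V q → ℝ} (hF : Measurable F) {c : ℝ}
    (h : ∀ x, |F x| ≤ c) :
    ∫ x, F x ∂cfgLaw V q π = avg fun σ => ∫ ω, F (σ, ω) ∂Measure.pi fun _ => π := by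
  have := lg_law_le (V := V) (q := q) π
  have hi : Integrable F (cfgLaw V q π) := lg_integrable hF h
  rw [← p_integral_uniform]
  exact integral_prod F hi

theorem lg_int_cfg_avg (π : Measure II) [IsProbabilityMeasure π] {ι : Type} [Fintype ι] {F : Cfg V q → ι → ℝ}
    (hF : ∀ i, Measurable fun x => F x i) (h : ∀ x i, |F x i| ≤ 1) :
    ∫ x, avg (F x) ∂cfgLaw V q π = avg fun σ => avg fun i => ∫ ω, F (σ, ω) i ∂Measure.pi fun _ => π := by
  rw [lg_int_cfg π (lg_meas_avg hF) fun c => lg_abs_avg_le zero_le_one (h c)]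
  congr 1; funext σ
  exact lg_int_avg fun i => lg_integrable ((hF i).comp measurable_prodMk_left) fun ω => h _ _

theorem lg_int_fst (π : Measure II) [IsProbabilityMeasure π] (f : Pairing V q → ℝ) :
    ∫ x, f x.1 ∂cfgLaw V q π = avg f := by
  obtain ⟨c, hc⟩ := (Set.finite_range fun σ => |f σ|).bddAbove
  rw [lg_int_cfg π (lg_meas_fst f) fun x => hc ⟨x.1, rfl⟩]
  simp

/-- the involution of the non-degenerate triples -/
def lg_sw (x : Pairing V q × HE V q × HE V q) : Pairing V q × HE V q × HE V q :=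
  if x.2.2 ≠ x.2.1 ∧ x.2.2 ≠ x.1 x.2.1 then (switch x.1 x.2.1 (x.1 x.2.2), x.2.1, x.1 x.2.1) else x

theorem lg_sw_spec (σ : Pairing V q) {a b : HE V q} (h1 : b ≠ a) :
    switch σ a (σ b) a = b ∧ switch σ a (σ b) (σ a) = σ b := by
  have h : σ b ≠ σ a := (p_inj σ).ne h1
  refine ⟨by rw [p_switch_left σ h, p_inv], ?_⟩
  rw [p_eq_iff, p_switch_right σ h]

theorem lg_sw_invol : Function.Involutive (lg_sw (V := V) (q := q)) := by
  rintro ⟨σ, a, b⟩
  by_cases h : b ≠ a ∧ b ≠ σ a
  · obtain ⟨e1, e2⟩ := lg_sw_spec σ h.1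
    have : lg_sw (σ, a, b) = (switch σ a (σ b), a, σ a) := if_pos h
    rw [this, lg_sw, if_pos ⟨p_ne σ a, by rw [e1]; exact h.2.symm⟩]
    simp only [e1, e2, p_switch_switch]
  · have : lg_sw (σ, a, b) = (σ, a, b) := if_neg h
    rw [this, this]

theorem stSX : StSX := by
  intro q π _ V _ _ f hf hb
  have m1 : ∀ p : HE V q × HE V q, Measurable fun c : Cfg V q => ind (p.2 ≠ p.1 ∧ p.2 ≠ c.1 p.1) *
      f (switchC c p.1 (c.1 p.2)) p.1 (c.1 p.1) := fun p =>
    measurable_from_prod_countable_right fun σ =>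
      ((hf p.1 (σ p.1)).comp (measurable_prodMk_left (x := switch σ p.1 (σ p.2)))).const_mul
        (ind (p.2 ≠ p.1 ∧ p.2 ≠ σ p.1))
  have m2 : ∀ p : HE V q × HE V q, Measurable fun c : Cfg V q => ind (p.2 ≠ p.1 ∧ p.2 ≠ c.1 p.1) *
      f c p.1 p.2 := fun p => (lg_meas_fst fun σ => ind (p.2 ≠ p.1 ∧ p.2 ≠ σ p.1)).mul (hf _ _)
  rw [lg_int_cfg_avg π m1 fun c p => lg_abs_ind_mul _ (hb _ _ _),
    lg_int_cfg_avg π m2 fun c p => lg_abs_ind_mul _ (hb _ _ _)]
  let I : Pairing V q × HE V q × HE V q → ℝ := fun x =>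
    ind (x.2.2 ≠ x.2.1 ∧ x.2.2 ≠ x.1 x.2.1) * ∫ ω, f (x.1, ω) x.2.1 x.2.2 ∂Measure.pi fun _ => π
  have h := p_avg_equiv lg_sw_invol.toPerm I
  rw [p_avg_prod, p_avg_prod I] at h
  refine Eq.trans ?_ (h.trans ?_)
  · congr 1; funext σ
    congr 1; funext p
    refine (integral_const_mul (ind (p.2 ≠ p.1 ∧ p.2 ≠ σ p.1)) _).trans ?_
    by_cases hp : p.2 ≠ p.1 ∧ p.2 ≠ σ p.1
    · have : lg_sw (σ, p) = (switch σ p.1 (σ p.2), p.1, σ p.1) := if_pos hp
      simp only [Function.Involutive.coe_toPerm, this, I]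
      rw [ind, if_pos hp, ind, if_pos ⟨p_ne σ _, by rw [(lg_sw_spec σ hp.1).1]; exact hp.2.symm⟩]
      rfl
    · have : lg_sw (σ, p) = (σ, p) := if_neg hp
      simp only [Function.Involutive.coe_toPerm, this, I]
      rw [ind, if_neg hp, zero_mul, zero_mul]
  · congr 1; funext σ
    congr 1; funext p
    exact (integral_const_mul (ind (p.2 ≠ p.1 ∧ p.2 ≠ σ p.1)) _).symm

/-! ### views -/

theorem lg_walk_glue {σ : Pairing V q} {α : Fin (q + 1) → HE V q} (hd : Disj σ α) (l : List (Fin q)) :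
    ∀ h : HE V q, (∀ (l' : List (Fin q)) (k : Fin q) (j : Fin (q + 1)), l'.length < l.length →
      rot (walk σ h l') k.succ ≠ α j ∧ rot (walk σ h l') k.succ ≠ σ (α j)) →
      walk (glue σ α) (inlH h) l = inlH (walk σ h l) := by
  induction l with
  | nil => exact fun _ _ => rfl
  | cons k l ih =>
    intro h hh
    have e := (lg_glue_spec σ α hd).2.2 (rot h k.succ) fun j => hh [] k j (Nat.succ_pos _)
    exact (congrArg (fun x => walk (glue σ α) x l) e).trans
      (ih _ fun l' k' j hl => hh (k :: l') k' j (Nat.succ_lt_succ hl))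

theorem lg_view_glue {c : Cfg V q} {α : Fin (q + 1) → HE V q} (w : Fin 2 → II) (hd : Disj c.1 α) {R : ℕ}
    {h : HE V q} (hn : ¬ Agree R (view (glueC c α w) (inlH h)) (view c h)) :
    ∃ x ∈ (p_L q R ×ˢ (Finset.univ : Finset (Fin q))) ×ˢ (Finset.univ : Finset (Fin (q + 1))),
      rot (walk c.1 h x.1.1) x.1.2.succ = α x.2 ∨ rot (walk c.1 h x.1.1) x.1.2.succ = c.1 (α x.2) := by
  by_contra hcon
  refine hn fun l hl => ?_
  have := lg_walk_glue hd l h fun l' k j hl' => not_or.1 fun hor =>
    hcon ⟨((l', k), j), by simp [p_mem_L]; omega, hor⟩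
  change Sum.elim c.2 w (walk (glue c.1 α) (inlH h) l).1 = _
  rw [this]; rfl

theorem stView : StView := by
  intro q R
  obtain ⟨C₀, hC₀, hT⟩ := p_treeLike_avg q R
  set N := ((p_L q R ×ˢ (Finset.univ : Finset (Fin q))) ×ˢ (Finset.univ : Finset (Fin (q + 1)))) with hN
  refine ⟨(q + 1) * (C₀ + N.card * 2), fun V _ _ => ⟨fun c α w hd => ?_, fun π _ => ?_⟩⟩
  · refine (p_frac_mono fun h hn => lg_view_glue w hd hn).trans ((lg_frac_exists_le _ (c := 2 / Fintype.card V)
      fun x _ => ?_).trans ?_)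
    · have hinj : Function.Injective fun h => rot (walk c.1 h x.1.1) x.1.2.succ :=
        (p_rot_injective _).comp (p_walk_injective c.1 _)
      refine (p_frac_le_card (T := ({α x.2, c.1 (α x.2)} : Finset _).preimage _ hinj.injOn) (t := 2)
        (fun h hh => by simpa using hh) ?_).trans (p_div_HE zero_le_two)
      exact_mod_cast (Finset.card_le_card_of_injOn _ (fun a ha => Finset.mem_preimage.1 ha) hinj.injOn).trans
        Finset.card_le_two
    · rw [← hN, ← mul_div_assoc]
      refine div_le_div_of_nonneg_right ?_ (Nat.cast_nonneg _)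
      nlinarith [Nat.cast_nonneg (α := ℝ) q, Nat.cast_nonneg (α := ℝ) N.card,
        mul_nonneg (Nat.cast_nonneg (α := ℝ) q) (Nat.cast_nonneg (α := ℝ) N.card),
        mul_nonneg (Nat.cast_nonneg (α := ℝ) q) hC₀]
  · have := lg_law_le (V := V) (q := q) π
    let B : Pairing V q → (Fin (q + 1) → HE V q) → Prop := fun σ α => ∃ j ∈ Finset.univ,
      ¬ TreeLike σ R (α j) ∨ ∃ x ∈ N, x.2 ≠ j ∧ (rot (walk σ (σ (α j)) x.1.1) x.1.2.succ = α x.2 ∨
        rot (walk σ (σ (α j)) x.1.1) x.1.2.succ = σ (α x.2))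
    have h1 : ∀ (c : Cfg V q) (w : Fin 2 → II), (avg fun α => if Disj c.1 α then
        ind (∃ j, ¬ Agree R (view (glueC c α w) (inlH (c.1 (α j)))) (view c (c.1 (α j)))) else 0) ≤
        frac (B c.1) := fun c w => by
      refine p_avg_mono fun α => ?_
      change _ ≤ ind (B c.1 α)
      split_ifs with hd
      · refine lg_ind_mono fun ⟨j, hj⟩ => ⟨j, Finset.mem_univ _, ?_⟩
        obtain ⟨x, hx, hor⟩ := lg_view_glue w hd hj
        by_cases hxj : x.2 = j
        · refine Or.inl fun hT => ?_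
          have hl : x.1.1.length ≤ R := p_mem_L.1 (Finset.mem_product.1 (Finset.mem_product.1 hx).1).1
          rw [hxj] at hor
          rcases hor with e | e
          · have := hT.1 0 x.1.1 hl
            rw [p_rot_zero] at this
            exact this (congrArg Prod.fst e :)
          · have := hT.2 0 0 x.1.1 [] hl (Nat.zero_le _)
            rw [p_rot_zero] at this
            rw [(this (congrArg Prod.fst e :)).2] at e
            exact p_rot_succ_ne _ _ e
        · exact Or.inr ⟨x, hx, hxj, hor⟩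
      · exact lg_ind_nonneg _
    have h0 : ∀ (c : Cfg V q) (w : Fin 2 → II), 0 ≤ (avg fun α => if Disj c.1 α then
        ind (∃ j, ¬ Agree R (view (glueC c α w) (inlH (c.1 (α j)))) (view c (c.1 (α j)))) else 0) :=
      fun c w => p_avg_nonneg fun α => by
        split_ifs
        · exact lg_ind_nonneg _
        · exact le_rfl
    have h2 : ∀ σ, frac (B σ) ≤ (q + 1) * (frac (fun h => ¬ TreeLike σ R h) +
        N.card * (2 / Fintype.card V)) := fun σ => by
      refine (lg_frac_exists_le _ fun j _ => (p_frac_or _ _).trans (add_le_add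
        (lg_frac_update _ j (p_frac_nonneg fun h => ¬ TreeLike σ R h) fun α => ?_)
        (lg_frac_exists_le _ (c := 2 / Fintype.card V) fun x _ => ?_))).trans_eq (by simp)
      · simp only [Function.update_self]; exact le_rfl
      · refine lg_frac_update _ x.2 (by positivity) fun α => ?_
        refine (p_frac_le_card (T := {rot (walk σ (σ (α j)) x.1.1) x.1.2.succ,
          σ (rot (walk σ (σ (α j)) x.1.1) x.1.2.succ)}) (t := 2) (fun y hy => ?_)
          (by exact_mod_cast Finset.card_le_two)).trans (p_div_HE zero_le_two)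
        obtain ⟨hne, hy⟩ := hy
        rw [Function.update_self, Function.update_of_ne hne.symm] at hy
        rcases hy with e | e
        · simp [e]
        · simp [e]
    calc _ ≤ ∫ c, frac (B c.1) ∂cfgLaw V q π := by
          refine integral_mono_of_nonneg (Eventually.of_forall fun c => integral_nonneg (h0 c))
            (lg_integrable (lg_meas_fst fun σ => frac (B σ)) fun c =>
              (abs_of_nonneg (p_frac_nonneg _)).trans_le (p_frac_le_one _)) (Eventually.of_forall fun c => ?_)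
          exact (le_abs_self _).trans (lg_abs_int_le (p_frac_nonneg _) fun w =>
            (abs_of_nonneg (h0 c w)).trans_le (h1 c w))
      _ = avg fun σ => frac (B σ) := lg_int_fst π fun σ => frac (B σ)
      _ ≤ (q + 1) * (C₀ / Fintype.card V + N.card * (2 / Fintype.card V)) := by
          refine (p_avg_mono h2).trans ?_
          rw [p_avg_mul, p_avg_add]
          exact mul_le_mul_of_nonneg_left (add_le_add (hT V) (p_avg_le (by positivity) fun _ => le_rfl))
            (by positivity)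
      _ = _ := by ring

end cfg

end Crest.Agent.R166
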